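import Mathlib

namespace Vale.Agent.Lib.P300

open scoped Manifold ContDiff

/-- The holomorphic hull of a set `K` in a complex manifold `M` modelled on the complex normed
space `E`: the points `v` with `|g v| ≤ sup_K |g|` for every holomorphic `g : M → ℂ`
(written without suprema: every bound `c` for `|g|` on `K` also bounds `|g v|`). -/
def holHull (E : Type*) [NormedAddCommGroup E] [NormedSpace ℂ E]
    {M : Type*} [TopologicalSpace M] [ChartedSpace E M] (K : Set M) : Set M :=
  {v | ∀ g : M → ℂ, MDifferentiable 𝓘(ℂ, E) 𝓘(ℂ, ℂ) g →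
    ∀ c : ℝ, (∀ x ∈ K, ‖g x‖ ≤ c) → ‖g v‖ ≤ c}

/-- A complex manifold `M` (modelled on `E`) is holomorphically convex if the holomorphic hull
of every nonempty compact subset is compact. -/
def HolConvex (E : Type*) [NormedAddCommGroup E] [NormedSpace ℂ E]
    (M : Type*) [TopologicalSpace M] [ChartedSpace E M] : Prop :=
  ∀ K : Set M, IsCompact K → K.Nonempty → IsCompact (holHull E K)

variable {E : Type*} [NormedAddCommGroup E] [NormedSpace ℂ E]
  {M : Type*} [TopologicalSpace M] [ChartedSpace E M]
  {F : Type*} [NormedAddCommGroup F] [NormedSpace ℂ F]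
  {N : Type*} [TopologicalSpace N] [ChartedSpace F N]

theorem subset_holHull (K : Set M) : K ⊆ holHull E K :=
  fun _ hx _ _ _ hc => hc _ hx

theorem isClosed_holHull (K : Set M) : IsClosed (holHull E K) := by
  have : holHull E K = ⋂ (g : M → ℂ) (_ : MDifferentiable 𝓘(ℂ, E) 𝓘(ℂ, ℂ) g) (c : ℝ)
      (_ : ∀ x ∈ K, ‖g x‖ ≤ c), {v | ‖g v‖ ≤ c} := by
    ext v
    simp only [holHull, Set.mem_ofPred_eq, Set.mem_iInter]
  rw [this]
  refine isClosed_iInter fun g => isClosed_iInter fun hg => isClosed_iInter fun c =>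
    isClosed_iInter fun _ => ?_
  exact isClosed_le (continuous_norm.comp hg.continuous) continuous_const

/-- The hull is pulled back by holomorphic maps: `hull_M K ⊆ f⁻¹ (hull_N (f K))`. -/
theorem holHull_subset_preimage {f : M → N} (hf : MDifferentiable 𝓘(ℂ, E) 𝓘(ℂ, F) f)
    (K : Set M) : holHull E K ⊆ f ⁻¹' holHull F (f '' K) := by
  intro v hv g hg c hc
  exact hv (g ∘ f) (hg.comp hf) c (fun x hx => hc (f x) (Set.mem_image_of_mem f hx))

/-- Holomorphic convexity is inherited along proper holomorphic maps. -/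
theorem HolConvex.of_isProperMap {f : M → N} (hf : MDifferentiable 𝓘(ℂ, E) 𝓘(ℂ, F) f)
    (hproper : IsProperMap f) (hN : HolConvex F N) : HolConvex E M := by
  intro K hK hKne
  have h1 : IsCompact (holHull F (f '' K)) :=
    hN (f '' K) (hK.image hf.continuous) (hKne.image f)
  exact (hproper.isCompact_preimage h1).of_isClosed_subset (isClosed_holHull K)
    (holHull_subset_preimage hf K)

end Vale.Agent.Lib.P300
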