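import Mathlib

namespace Vale.Agent.Lib.P300

open scoped Manifold ContDiff

/-- The holomorphic hull of `K` in a complex manifold `M` with model `I` (general model space):
the points `v` with `|g v| ≤ c` for every holomorphic `g : M → ℂ` and every bound `c` of `|g|`
on `K`. -/
def holHullI {E H : Type*} [NormedAddCommGroup E] [NormedSpace ℂ E] [TopologicalSpace H]
    (I : ModelWithCorners ℂ E H) {M : Type*} [TopologicalSpace M] [ChartedSpace H M]
    (K : Set M) : Set M :=
  {v | ∀ g : M → ℂ, MDifferentiable I 𝓘(ℂ, ℂ) g → ∀ c : ℝ, (∀ x ∈ K, ‖g x‖ ≤ c) → ‖g v‖ ≤ c}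

/-- Holomorphic convexity of a complex manifold `M` with model `I`: the holomorphic hull of
every nonempty compact set is compact. -/
def HolConvexI {E H : Type*} [NormedAddCommGroup E] [NormedSpace ℂ E] [TopologicalSpace H]
    (I : ModelWithCorners ℂ E H) (M : Type*) [TopologicalSpace M] [ChartedSpace H M] : Prop :=
  ∀ K : Set M, IsCompact K → K.Nonempty → IsCompact (holHullI I K)

variable {E H : Type*} [NormedAddCommGroup E] [NormedSpace ℂ E] [TopologicalSpace H]
  {I : ModelWithCorners ℂ E H} {M : Type*} [TopologicalSpace M] [ChartedSpace H M]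
  {E' H' : Type*} [NormedAddCommGroup E'] [NormedSpace ℂ E'] [TopologicalSpace H']
  {I' : ModelWithCorners ℂ E' H'} {N : Type*} [TopologicalSpace N] [ChartedSpace H' N]

theorem isClosed_holHullI (K : Set M) : IsClosed (holHullI I K) := by
  have : holHullI I K = ⋂ (g : M → ℂ) (_ : MDifferentiable I 𝓘(ℂ, ℂ) g) (c : ℝ)
      (_ : ∀ x ∈ K, ‖g x‖ ≤ c), {v | ‖g v‖ ≤ c} := by
    ext v
    simp only [holHullI, Set.mem_ofPred_eq, Set.mem_iInter]
  rw [this]
  refine isClosed_iInter fun g => isClosed_iInter fun hg => isClosed_iInter fun c =>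
    isClosed_iInter fun _ => ?_
  exact isClosed_le (continuous_norm.comp hg.continuous) continuous_const

theorem holHullI_subset_preimage {f : M → N} (hf : MDifferentiable I I' f) (K : Set M) :
    holHullI I K ⊆ f ⁻¹' holHullI I' (f '' K) := by
  intro v hv g hg c hc
  exact hv (g ∘ f) (hg.comp hf) c (fun x hx => hc (f x) (Set.mem_image_of_mem f hx))

/-- The product of two holomorphically convex manifolds is holomorphically convex. -/
theorem HolConvexI.prod (hM : HolConvexI I M) (hN : HolConvexI I' N) :
    HolConvexI (I.prod I') (M × N) := by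
  intro K hK hKne
  have h1 : IsCompact (holHullI I (Prod.fst '' K)) :=
    hM _ (hK.image continuous_fst) (hKne.image _)
  have h2 : IsCompact (holHullI I' (Prod.snd '' K)) :=
    hN _ (hK.image continuous_snd) (hKne.image _)
  refine (h1.prod h2).of_isClosed_subset (isClosed_holHullI K) ?_
  intro v hv
  exact ⟨holHullI_subset_preimage (I := I.prod I') (I' := I) mdifferentiable_fst K hv,
    holHullI_subset_preimage (I := I.prod I') (I' := I') mdifferentiable_snd K hv⟩

end Vale.Agent.Lib.P300
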